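import Mathlib

/-! The Prekopa-Leindler inequality on Euclidean space. -/

open MeasureTheory Set
open scoped ENNReal NNReal Pointwise

namespace Vale.Agent.Lib.PL

lemma vol_affine_image (A : Set ℝ) {s : ℝ} (hs : 0 < s) (c : ℝ) :
    volume ((fun x => s * x + c) '' A) = ENNReal.ofReal s * volume A := by
  have h1 : (fun x => s * x + c) '' A = (fun x => x + c) '' (s • A) := by
    rw [← Set.image_smul, Set.image_image]; rfl
  rw [h1, Set.image_add_right, measure_preimage_add_right,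
    Measure.addHaar_smul_of_nonneg volume hs.le]
  simp

lemma bm1_compact {A B C : Set ℝ} (hA : IsCompact A) (hB : IsCompact B) (hAn : A.Nonempty)
    (hBn : B.Nonempty) {s t : ℝ} (hs : 0 < s) (ht : 0 < t)
    (h : ∀ x ∈ A, ∀ y ∈ B, s * x + t * y ∈ C) :
    ENNReal.ofReal s * volume A + ENNReal.ofReal t * volume B ≤ volume C := by
  obtain ⟨a, ha, ha'⟩ := hA.exists_isGreatest hAn
  obtain ⟨b, hb, hb'⟩ := hB.exists_isLeast hBn
  rw [← vol_affine_image A hs (t * b), ← vol_affine_image B ht (s * a)]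
  have hmeas : MeasurableSet ((fun y => t * y + s * a) '' B) :=
    (hB.image (by fun_prop)).measurableSet
  have hd : AEDisjoint volume ((fun x => s * x + t * b) '' A) ((fun y => t * y + s * a) '' B) := by
    refine measure_mono_null (t := {s * a + t * b}) ?_ (by simp)
    rintro z ⟨⟨x, hx, rfl⟩, ⟨y, hy, hxy⟩⟩
    have h1 := ha' hx
    have h2 := hb' hy
    simp only [mem_singleton_iff] at hxy ⊢
    nlinarith [mul_le_mul_of_nonneg_left h1 hs.le, mul_le_mul_of_nonneg_left h2 ht.le]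
  rw [← measure_union₀ hmeas.nullMeasurableSet hd]
  apply measure_mono
  rintro z (⟨x, hx, rfl⟩ | ⟨y, hy, rfl⟩)
  · exact h x hx b hb
  · have := h a ha y hy
    simpa [add_comm] using this

lemma exists_compact_ge {A : Set ℝ} (hAn : A.Nonempty) (K : Set ℝ) :
    ∃ K', IsCompact K' ∧ K'.Nonempty ∧ K' ⊆ A ∧
      (⨆ (_ : K ⊆ A) (_ : IsCompact K), volume K) ≤ volume K' := by
  obtain ⟨a, ha⟩ := hAn
  by_cases hK : K ⊆ A ∧ IsCompact K
  · refine ⟨insert a K, hK.2.insert a, insert_nonempty _ _, insert_subset ha hK.1, ?_⟩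
    exact iSup₂_le fun _ _ => measure_mono (subset_insert _ _)
  · refine ⟨{a}, isCompact_singleton, singleton_nonempty _, singleton_subset_iff.2 ha, ?_⟩
    exact iSup₂_le fun h1 h2 => (hK ⟨h1, h2⟩).elim

lemma bm1 {A B C : Set ℝ} (hA : MeasurableSet A) (hB : MeasurableSet B) (hAn : A.Nonempty)
    (hBn : B.Nonempty) {s t : ℝ} (hs : 0 < s) (ht : 0 < t)
    (h : ∀ x ∈ A, ∀ y ∈ B, s * x + t * y ∈ C) :
    ENNReal.ofReal s * volume A + ENNReal.ofReal t * volume B ≤ volume C := by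
  rw [hA.measure_eq_iSup_isCompact volume, hB.measure_eq_iSup_isCompact volume,
    ENNReal.mul_iSup, ENNReal.mul_iSup]
  refine ENNReal.iSup_add_iSup_le fun K L => ?_
  obtain ⟨K', hK1, hK2, hK3, hK4⟩ := exists_compact_ge hAn K
  obtain ⟨L', hL1, hL2, hL3, hL4⟩ := exists_compact_ge hBn L
  refine le_trans ?_ (bm1_compact hK1 hL1 hK2 hL2 hs ht fun x hx y hy => h x (hK3 hx) y (hL3 hy))
  gcongr

lemma pl1_normalized {f g h : ℝ → ℝ} (hf : Measurable f) (hg : Measurable g) (hh : Measurable h)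
    (hf0 : ∀ x, 0 ≤ f x) (hg0 : ∀ x, 0 ≤ g x) (hh0 : ∀ x, 0 ≤ h x)
    (hf1 : ∀ x, f x ≤ 1) (hg1 : ∀ x, g x ≤ 1)
    (hf2 : ∀ τ < 1, ∃ x, τ < f x) (hg2 : ∀ τ < 1, ∃ x, τ < g x)
    {s t : ℝ} (hs : 0 < s) (ht : 0 < t)
    (H : ∀ x y τ, 0 < τ → τ < f x → τ < g y → τ ≤ h (s * x + t * y)) :
    ENNReal.ofReal s * (∫⁻ x, ENNReal.ofReal (f x)) + ENNReal.ofReal t * (∫⁻ x, ENNReal.ofReal (g x))
      ≤ ∫⁻ x, ENNReal.ofReal (h x) := by
  rw [lintegral_eq_lintegral_meas_lt volume (Filter.Eventually.of_forall hf0) hf.aemeasurable,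
    lintegral_eq_lintegral_meas_lt volume (Filter.Eventually.of_forall hg0) hg.aemeasurable,
    lintegral_eq_lintegral_meas_le volume (Filter.Eventually.of_forall hh0) hh.aemeasurable]
  have mf : Measurable fun τ : ℝ => volume {a : ℝ | τ < f a} :=
    Antitone.measurable fun τ τ' hτ => measure_mono fun a ha => lt_of_le_of_lt hτ ha
  have mg : Measurable fun τ : ℝ => volume {a : ℝ | τ < g a} :=
    Antitone.measurable fun τ τ' hτ => measure_mono fun a ha => lt_of_le_of_lt hτ ha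
  rw [← lintegral_const_mul _ mf, ← lintegral_const_mul _ mg,
    ← lintegral_add_left (mf.const_mul _)]
  refine setLIntegral_mono' measurableSet_Ioi fun τ hτ => ?_
  by_cases h1 : τ < 1
  · exact bm1 (measurableSet_lt measurable_const hf) (measurableSet_lt measurable_const hg)
      (hf2 τ h1) (hg2 τ h1) hs ht fun x hx y hy => H x y τ hτ hx hy
  · have e1 : {a : ℝ | τ < f a} = ∅ := by
      ext a; simp only [mem_ofPred_eq, mem_empty_iff_false, iff_false, not_lt]
      linarith [hf1 a]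
    have e2 : {a : ℝ | τ < g a} = ∅ := by
      ext a; simp only [mem_ofPred_eq, mem_empty_iff_false, iff_false, not_lt]
      linarith [hg1 a]
    simp [e1, e2]

lemma amgm {s t : ℝ} (hs : 0 < s) (ht : 0 < t) (hst : s + t = 1) (a b : ℝ≥0∞) :
    a ^ s * b ^ t ≤ ENNReal.ofReal s * a + ENNReal.ofReal t * b := by
  rcases eq_or_ne a ⊤ with rfl | ha
  · rw [ENNReal.mul_top (by simpa using hs)]; simp
  rcases eq_or_ne b ⊤ with rfl | hb
  · rw [ENNReal.mul_top (by simpa using ht)]; simp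
  lift a to ℝ≥0 using ha
  lift b to ℝ≥0 using hb
  lift s to ℝ≥0 using hs.le
  lift t to ℝ≥0 using ht.le
  have := NNReal.geom_mean_le_arith_mean2_weighted s t a b (by exact_mod_cast hst)
  rw [← ENNReal.coe_rpow_of_nonneg _ hs.le, ← ENNReal.coe_rpow_of_nonneg _ ht.le]
  simp only [ENNReal.ofReal_coe_nnreal]
  exact_mod_cast this

/-- The statement of the Prekopa-Leindler inequality for a measure and an interpolation map. -/
def PLProp {α : Type*} [MeasurableSpace α] (μ : Measure α) (m : α → α → α) (s t : ℝ) : Prop :=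
  ∀ f g h : α → ℝ≥0∞, Measurable f → Measurable g → Measurable h →
    (∀ x y, f x ^ s * g y ^ t ≤ h (m x y)) → (∫⁻ x, f x ∂μ) ^ s * (∫⁻ x, g x ∂μ) ^ t ≤ ∫⁻ x, h x ∂μ

lemma pl1_bdd {s t : ℝ} (hs : 0 < s) (ht : 0 < t) (hst : s + t = 1)
    {f g h : ℝ → ℝ≥0∞} (hf : Measurable f) (hg : Measurable g) (hh : Measurable h)
    (hF : ⨆ x, f x ≠ ⊤) (hG : ⨆ x, g x ≠ ⊤)
    (H : ∀ x y, f x ^ s * g y ^ t ≤ h (s * x + t * y)) :
    (∫⁻ x, f x) ^ s * (∫⁻ x, g x) ^ t ≤ ∫⁻ x, h x := by
  set F := ⨆ x, f x with hFdef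
  set G := ⨆ x, g x with hGdef
  rcases eq_or_ne F 0 with hF0 | hF0
  · have : f = fun _ => 0 := by
      funext x; exact le_antisymm (hF0 ▸ le_iSup f x) (zero_le)
    simp [this, ENNReal.zero_rpow_of_pos hs]
  rcases eq_or_ne G 0 with hG0 | hG0
  · have : g = fun _ => 0 := by
      funext x; exact le_antisymm (hG0 ▸ le_iSup g x) (zero_le)
    simp [this, ENNReal.zero_rpow_of_pos ht]
  set P := F ^ s * G ^ t with hP
  have hP0 : P ≠ 0 := mul_ne_zero (by simp [hF0, hF]) (by simp [hG0, hG])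
  have hPt : P ≠ ⊤ := ENNReal.mul_ne_top (by simp [hF0, hF]) (by simp [hG0, hG])
  have hf1 : ∀ x, f x / F ≤ 1 := fun x => ENNReal.div_le_of_le_mul (by simpa using le_iSup f x)
  have hg1 : ∀ x, g x / G ≤ 1 := fun x => ENNReal.div_le_of_le_mul (by simpa using le_iSup g x)
  have key : ∀ {u : ℝ → ℝ≥0∞} {U : ℝ≥0∞}, U = ⨆ x, u x → U ≠ 0 → U ≠ ⊤ →
      ∀ τ < (1 : ℝ), ∃ x, τ < (u x / U).toReal := by
    intro u U hU hU0 hUt τ hτ
    have h1 : ENNReal.ofReal τ * U < ⨆ x, u x := by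
      rw [← hU]
      calc ENNReal.ofReal τ * U < 1 * U :=
            ENNReal.mul_lt_mul_left hU0 hUt (ENNReal.ofReal_lt_one.2 hτ)
        _ = U := one_mul _
    obtain ⟨x, hx⟩ := lt_iSup_iff.1 h1
    refine ⟨x, ?_⟩
    have h2 : ENNReal.ofReal τ < u x / U := by
      rwa [ENNReal.lt_div_iff_mul_lt (Or.inl hU0) (Or.inl hUt)]
    have h3 : u x / U ≠ ⊤ := by
      refine ne_top_of_le_ne_top ENNReal.one_ne_top (ENNReal.div_le_of_le_mul ?_)
      rw [hU, one_mul]; exact le_iSup u x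
    rcases lt_or_ge τ 0 with h0 | h0
    · exact h0.trans_le ENNReal.toReal_nonneg
    · exact (ENNReal.ofReal_lt_iff_lt_toReal h0 h3).1 h2
  have main := pl1_normalized (f := fun x => (f x / F).toReal) (g := fun x => (g x / G).toReal)
    (h := fun x => (min (h x / P) 1).toReal) (by fun_prop) (by fun_prop) (by fun_prop)
    (fun _ => ENNReal.toReal_nonneg) (fun _ => ENNReal.toReal_nonneg)
    (fun _ => ENNReal.toReal_nonneg)
    (fun x => by simpa using ENNReal.toReal_mono ENNReal.one_ne_top (hf1 x))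
    (fun x => by simpa using ENNReal.toReal_mono ENNReal.one_ne_top (hg1 x))
    (key hFdef hF0 hF) (key hGdef hG0 hG) hs ht (by
      intro x y τ hτ hx hy
      have hx' : ENNReal.ofReal τ ≤ f x / F := by
        rw [ENNReal.ofReal_le_iff_le_toReal (ne_top_of_le_ne_top ENNReal.one_ne_top (hf1 x))]
        exact hx.le
      have hy' : ENNReal.ofReal τ ≤ g y / G := by
        rw [ENNReal.ofReal_le_iff_le_toReal (ne_top_of_le_ne_top ENNReal.one_ne_top (hg1 y))]
        exact hy.le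
      rw [← ENNReal.ofReal_le_iff_le_toReal (ne_top_of_le_ne_top ENNReal.one_ne_top
        (min_le_right _ _))]
      refine le_min ?_ (hx'.trans (hf1 x))
      rw [ENNReal.le_div_iff_mul_le (Or.inl hP0) (Or.inl hPt)]
      rw [ENNReal.le_div_iff_mul_le (Or.inl hF0) (Or.inl hF)] at hx'
      rw [ENNReal.le_div_iff_mul_le (Or.inl hG0) (Or.inl hG)] at hy'
      refine le_trans ?_ (H x y)
      calc ENNReal.ofReal τ * P = (ENNReal.ofReal τ * F) ^ s * (ENNReal.ofReal τ * G) ^ t := by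
            rw [ENNReal.mul_rpow_of_nonneg _ _ hs.le, ENNReal.mul_rpow_of_nonneg _ _ ht.le, hP]
            have : ENNReal.ofReal τ = ENNReal.ofReal τ ^ s * ENNReal.ofReal τ ^ t := by
              rw [← ENNReal.rpow_add_of_nonneg _ _ hs.le ht.le, hst, ENNReal.rpow_one]
            conv_lhs => rw [this]
            ring
        _ ≤ f x ^ s * g y ^ t := by gcongr)
  have ef : ∀ x, ENNReal.ofReal (f x / F).toReal = f x / F := fun x =>
    ENNReal.ofReal_toReal (ne_top_of_le_ne_top ENNReal.one_ne_top (hf1 x))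
  have eg : ∀ x, ENNReal.ofReal (g x / G).toReal = g x / G := fun x =>
    ENNReal.ofReal_toReal (ne_top_of_le_ne_top ENNReal.one_ne_top (hg1 x))
  have eh : ∀ x, ENNReal.ofReal (min (h x / P) 1).toReal = min (h x / P) 1 := fun x =>
    ENNReal.ofReal_toReal (ne_top_of_le_ne_top ENNReal.one_ne_top (min_le_right _ _))
  simp only [ef, eg, eh] at main
  have e1 : ∫⁻ x, f x = F * ∫⁻ x, f x / F := by
    rw [← lintegral_const_mul _ (by fun_prop)]
    congr 1; funext x; rw [ENNReal.mul_div_cancel hF0 hF]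
  have e2 : ∫⁻ x, g x = G * ∫⁻ x, g x / G := by
    rw [← lintegral_const_mul _ (by fun_prop)]
    congr 1; funext x; rw [ENNReal.mul_div_cancel hG0 hG]
  have e3 : P * ∫⁻ x, min (h x / P) 1 ≤ ∫⁻ x, h x := by
    rw [← lintegral_const_mul _ (by fun_prop)]
    refine lintegral_mono fun x => ?_
    calc P * min (h x / P) 1 ≤ P * (h x / P) := by gcongr; exact min_le_left _ _
      _ = h x := ENNReal.mul_div_cancel hP0 hPt
  rw [e1, e2, ENNReal.mul_rpow_of_nonneg _ _ hs.le, ENNReal.mul_rpow_of_nonneg _ _ ht.le]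
  calc _ = P * ((∫⁻ x, f x / F) ^ s * (∫⁻ x, g x / G) ^ t) := by rw [hP]; ring
    _ ≤ P * ∫⁻ x, min (h x / P) 1 := by
        gcongr; exact (amgm hs ht hst _ _).trans main
    _ ≤ _ := e3

lemma lintegral_eq_iSup_min {α : Type*} [MeasurableSpace α] (μ : Measure α) {f : α → ℝ≥0∞}
    (hf : Measurable f) : ∫⁻ x, f x ∂μ = ⨆ n : ℕ, ∫⁻ x, min (f x) n ∂μ := by
  rw [← lintegral_iSup (by fun_prop)]
  · congr 1; funext x
    rw [← inf_iSup_eq (f x) (fun n : ℕ => (n : ℝ≥0∞)), ENNReal.iSup_natCast]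
    simp
  · intro n m hnm x
    exact min_le_min_left _ (by exact_mod_cast hnm)

lemma rpow_iSup_le {a : ℕ → ℝ≥0∞} {s : ℝ} (hs : 0 < s) : (⨆ n, a n) ^ s = ⨆ n, a n ^ s :=
  (ENNReal.orderIsoRpow s hs).map_iSup a

lemma pl1 {s t : ℝ} (hs : 0 < s) (ht : 0 < t) (hst : s + t = 1) :
    PLProp (volume : Measure ℝ) (fun x y => s * x + t * y) s t := by
  intro f g h hf hg hh H
  rw [lintegral_eq_iSup_min volume hf, lintegral_eq_iSup_min volume hg, rpow_iSup_le hs,
    rpow_iSup_le ht, ENNReal.iSup_mul]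
  refine iSup_le fun n => ?_
  rw [ENNReal.mul_iSup]
  refine iSup_le fun k => ?_
  refine pl1_bdd hs ht hst (by fun_prop) (by fun_prop) hh ?_ ?_ fun x y => le_trans ?_ (H x y)
  · exact ne_top_of_le_ne_top (ENNReal.natCast_ne_top n) (iSup_le fun x => min_le_right _ _)
  · exact ne_top_of_le_ne_top (ENNReal.natCast_ne_top k) (iSup_le fun x => min_le_right _ _)
  · gcongr <;> exact min_le_left _ _

lemma PLProp.prod {α β : Type*} [MeasurableSpace α] [MeasurableSpace β] {μ : Measure α}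
    {ν : Measure β} [SFinite ν] {m : α → α → α} {n : β → β → β} {s t : ℝ}
    (h1 : PLProp μ m s t) (h2 : PLProp ν n s t) :
    PLProp (μ.prod ν) (fun x y => (m x.1 y.1, n x.2 y.2)) s t := by
  intro f g h hf hg hh H
  rw [lintegral_prod _ hf.aemeasurable, lintegral_prod _ hg.aemeasurable,
    lintegral_prod _ hh.aemeasurable]
  refine h1 _ _ _ hf.lintegral_prod_right' hg.lintegral_prod_right' hh.lintegral_prod_right' ?_
  intro x y
  exact h2 _ _ _ (by fun_prop) (by fun_prop) (by fun_prop) fun u v => H (x, u) (y, v)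

lemma PLProp.of_measurePreserving {α β : Type*} [MeasurableSpace α] [MeasurableSpace β]
    {μ : Measure α} {ν : Measure β} {m : α → α → α} {n : β → β → β} {s t : ℝ}
    {e : α → β} (he : MeasurePreserving e μ ν) (hc : ∀ x y, e (m x y) = n (e x) (e y))
    (h1 : PLProp μ m s t) : PLProp ν n s t := by
  intro f g h hf hg hh H
  rw [← he.lintegral_comp hf, ← he.lintegral_comp hg, ← he.lintegral_comp hh]
  refine h1 _ _ _ (hf.comp he.measurable) (hg.comp he.measurable) (hh.comp he.measurable) ?_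
  intro x y
  rw [hc]; exact H _ _

lemma pl_pi {s t : ℝ} (hs : 0 < s) (ht : 0 < t) (hst : s + t = 1) (n : ℕ) :
    PLProp (volume : Measure (Fin n → ℝ)) (fun x y => s • x + t • y) s t := by
  induction n with
  | zero =>
    intro f g h hf hg hh H
    rw [Measure.volume_pi_eq_dirac 0]
    simp only [lintegral_dirac' _ hf, lintegral_dirac' _ hg, lintegral_dirac' _ hh]
    simpa using H 0 0
  | succ n ih =>
    have hp := ((pl1 hs ht hst).prod ih)
    refine PLProp.of_measurePreserving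
      (volume_preserving_piFinSuccAbove (fun _ : Fin (n + 1) => ℝ) 0).symm ?_ hp
    intro x y
    apply (MeasurableEquiv.piFinSuccAbove (fun _ : Fin (n + 1) => ℝ) 0).injective
    rw [MeasurableEquiv.apply_symm_apply]
    ext i
    · simp [MeasurableEquiv.piFinSuccAbove]
    · simp [MeasurableEquiv.piFinSuccAbove, Fin.tail]

/-- The Prekopa-Leindler inequality on Euclidean space. -/
theorem prekopa_leindler {s t : ℝ} (hs : 0 < s) (ht : 0 < t) (hst : s + t = 1) (n : ℕ) :
    PLProp (volume : Measure (EuclideanSpace ℝ (Fin n))) (fun x y => s • x + t • y) s t :=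
  PLProp.of_measurePreserving (PiLp.volume_preserving_toLp (Fin n)) (fun x y => by simp)
    (pl_pi hs ht hst n)

end Vale.Agent.Lib.PL
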